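import Vale.Agent.Lib.P199.Embedding

open TensorProduct Module Polynomial

namespace Vale.Agent.Lib.P199

universe u

section Core

attribute [local instance] Algebra.TensorProduct.rightAlgebra

variable {F D : Type u} [Field F] [DivisionRing D] [Algebra F D]

theorem exists_matrix_tensor [Algebra.IsCentral F D] [Algebra.IsAlgebraic F D] (hF : Uncountable F)
    {M : Type u} [Field M] [Algebra F M] [FiniteDimensional F M] :
    ∃ (r : ℕ) (_ : NeZero r) (D1 : Type u) (_ : DivisionRing D1) (_ : Algebra M D1),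
      Algebra.IsCentral M D1 ∧ Algebra.IsAlgebraic M D1 ∧ r ∣ finrank F M ∧
        Nonempty ((D ⊗[F] M) ≃ₐ[M] Matrix (Fin r) (Fin r) D1) := by
  have hsimple : IsSimpleRing (D ⊗[F] M) := isSimpleRing_tensor F D M
  have hart : IsArtinianRing (D ⊗[F] M) := isArtinianRing_tensor
  have hcen : Algebra.IsCentral M (D ⊗[F] M) := isCentral_tensor F D M
  obtain ⟨r, hr, D1, hD1, hA, ⟨e⟩⟩ := IsSimpleRing.exists_algEquiv_matrix_divisionRing M (D ⊗[F] M)
  refine ⟨r, hr, D1, hD1, hA, ?_, ?_, ?_, ⟨e⟩⟩
  · exact isCentral_of_matrix (Algebra.IsCentral.of_algEquiv M _ _ e)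
  · refine ⟨fun d => isAlgebraic_of_matrix e (fun z => ?_) d⟩
    exact (isAlgebraic_tensor hF z).tower_top M
  · exact capacity_dvd (e : (D ⊗[F] M) ≃+* Matrix (Fin r) (Fin r) D1)

/-- The image in `D ⊗ M` of the element `a`. -/
lemma aeval_tmul_one {M : Type u} [Field M] [Algebra F M] (a : D) (f : F[X]) :
    aeval (a ⊗ₜ[F] (1 : M)) (f.map (algebraMap F M)) = (aeval a f) ⊗ₜ[F] (1 : M) := by
  rw [aeval_map_algebraMap]
  have := aeval_algHom_apply (Algebra.TensorProduct.includeLeft (R := F) (S := F) (A := D) (B := M)) a f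
  simpa using this

/-- **Core theorem.** Let `D` be a central division algebra, algebraic over an uncountable field `F`,
and let `a` be a non-central element of `D`, separable over `F`, and `p` a prime dividing its degree.
Then there is a finite extension `L` of `F` of degree prime to `p` and a noncommutative
finite-dimensional division algebra over `L`. -/
theorem core [Algebra.IsCentral F D] [Algebra.IsAlgebraic F D] (hF : Uncountable F) (a : D)
    (hs : IsSeparable F a) {p : ℕ} (hp : p.Prime) (hpd : p ∣ (minpoly F a).natDegree) :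
    ∃ (L : Type u) (_ : Field L) (_ : Algebra F L) (_ : FiniteDimensional F L)
      (Δ : Type u) (_ : DivisionRing Δ) (_ : Algebra L Δ) (_ : FiniteDimensional L Δ),
      ¬ p ∣ finrank F L ∧ ∃ x y : Δ, x * y ≠ y * x := by
  classical
  have hpf : Fact p.Prime := ⟨hp⟩
  set f : F[X] := minpoly F a with hf
  have hint : IsIntegral F a := (Algebra.IsAlgebraic.isAlgebraic a).isIntegral
  have hfirr : Irreducible f := minpoly.irreducible hint
  have hfmon : f.Monic := minpoly.monic hint
  have hfsep : f.Separable := hs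
  let E := f.SplittingField
  have : IsGalois F E := IsGalois.of_separable_splitting_field hfsep
  obtain ⟨P⟩ : Nonempty (Sylow p Gal(E/F)) := inferInstance
  let F1 : IntermediateField F E := IntermediateField.fixedField (P : Subgroup Gal(E/F))
  have hF1E : finrank F1 E = Nat.card P := IntermediateField.finrank_fixedField_eq_card _
  have hFF1 : finrank F F1 = (P : Subgroup Gal(E/F)).index := by
    have h1 := Module.finrank_mul_finrank F F1 E
    have h2 := Subgroup.index_mul_card (P : Subgroup Gal(E/F))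
    rw [hF1E, ← IsGalois.card_aut_eq_finrank F E] at h1
    have hpos : 0 < Nat.card P := Nat.card_pos
    exact Nat.eq_of_mul_eq_mul_right hpos (h1.trans h2.symm)
  have hcop : ¬ p ∣ finrank F F1 := by
    rw [hFF1]
    exact P.not_dvd_index
  obtain ⟨n, hn⟩ : ∃ n, finrank F1 E = p ^ n := by
    rw [hF1E]
    exact ⟨_, Sylow.card_eq_multiplicity P⟩
  obtain ⟨r, hr, D1, hD1, hA, hcen, halg, hrdvd, ⟨e⟩⟩ := exists_matrix_tensor (D := D) hF (M := F1)
  let B : Matrix (Fin r) (Fin r) D1 := e (a ⊗ₜ[F] (1 : F1))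
  let T : Module.End D1 (Fin r → D1) := rmul B
  let f1 : F1[X] := f.map (algebraMap F F1)
  have hT : aeval T f1 = 0 := by
    rw [aeval_rmul]
    have h1 : aeval B f1 = e (aeval (a ⊗ₜ[F] (1 : F1)) f1) :=
      aeval_algHom_apply (e : (D ⊗[F] F1) →ₐ[F1] Matrix (Fin r) (Fin r) D1) _ f1
    have h0 : aeval a f = 0 := minpoly.aeval F a
    rw [h1, aeval_tmul_one, h0, TensorProduct.zero_tmul, map_zero]
    refine LinearMap.ext fun v => ?_
    simp [rmul_apply]
  have hpr : ¬ p ∣ finrank D1 (Fin r → D1) := by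
    rw [Module.finrank_fin_fun]
    exact fun h => hcop (h.trans hrdvd)
  obtain ⟨g, hgi, hgm, hgf, hgp⟩ := exists_irreducible_factor T (hfsep.map) (hfmon.map _) hT hpr
  -- a root of `g` in `E`
  have hsplit : (f1.map (algebraMap F1 E)).Splits := by
    have h1 : f1.map (algebraMap F1 E) = f.map (algebraMap F E) := by
      rw [Polynomial.map_map]
      rfl
    rw [h1]
    exact SplittingField.splits f
  have hf10 : f1.map (algebraMap F1 E) ≠ 0 :=
    (hfmon.map (algebraMap F F1)).map (algebraMap F1 E) |>.ne_zero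
  have hgsplit : (g.map (algebraMap F1 E)).Splits :=
    hsplit.of_dvd hf10 (Polynomial.map_dvd _ hgf)
  have hgdeg : (g.map (algebraMap F1 E)).degree ≠ 0 := by
    rw [degree_map]
    exact (Polynomial.degree_pos_of_irreducible hgi).ne'
  obtain ⟨β, hβ0⟩ := hgsplit.exists_eval_eq_zero hgdeg
  have hβ : aeval β g = 0 := by
    rwa [eval_map_algebraMap] at hβ0
  have hβf1 : aeval β f1 = 0 := by
    obtain ⟨c, hc⟩ := hgf
    have hc' : f1 = g * c := hc
    rw [hc', map_mul, hβ, zero_mul]
  have hβf : aeval β f = 0 := by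
    have h1 : f1 = f.map (algebraMap F F1) := rfl
    rw [h1, aeval_map_algebraMap] at hβf1
    exact hβf1
  have hβ2 : β ∉ (algebraMap F1 E).range := by
    rintro ⟨c, rfl⟩
    have hmin : f = minpoly F (algebraMap F1 E c) :=
      minpoly.eq_of_irreducible_of_monic hfirr hβf hfmon
    have h2 : minpoly F (algebraMap F1 E c) = minpoly F c :=
      minpoly.algebraMap_eq (FaithfulSMul.algebraMap_injective F1 E) c
    have h3 : (minpoly F c).natDegree ∣ finrank F F1 :=
      minpoly.degree_dvd (Algebra.IsIntegral.isIntegral c)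
    rw [← h2, ← hmin] at h3
    exact hcop (hpd.trans h3)
  obtain ⟨M, hMp, hMgal, ⟨φ⟩⟩ := exists_embedding_of_kernel hn T hgi hgm β hβ hβ2 hgp
  obtain ⟨σ, hσ⟩ : ∃ σ : Gal(M/F1), σ ≠ 1 := by
    have h1 : Nat.card Gal(M/F1) = p := by
      rw [IsGalois.card_aut_eq_finrank, hMp]
    have h2 : Nontrivial Gal(M/F1) := by
      rw [← Finite.one_lt_card_iff_nontrivial, h1]
      exact hp.one_lt
    exact exists_ne 1
  obtain ⟨S, hS1, hS2, hS3, hxy⟩ := exists_noncomm_of_embedding φ σ hσ
  exact ⟨F1, inferInstance, inferInstance, inferInstance, S, hS1, hS2, hS3, hcop, hxy⟩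

end Core

end Vale.Agent.Lib.P199
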