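import Vale.Agent.Lib.P199.Modules

open TensorProduct Module Polynomial

namespace Vale.Agent.Lib.P199

universe u

section Cyclic

variable {k Δ M : Type*} [Field k] [DivisionRing Δ] [Algebra k Δ] [Field M] [Algebra k M]

lemma pow_mul_phi (φ : M →ₐ[k] Δ) (σ : M →ₐ[k] M) (x : Δ) (hx : ∀ m, x * φ m = φ (σ m) * x)
    (i : ℕ) (m : M) : x ^ i * φ m = φ (σ^[i] m) * x ^ i := by
  induction i generalizing m with
  | zero => simp
  | succ i ih =>
    rw [pow_succ, mul_assoc, hx, ← mul_assoc, ih, mul_assoc, Function.iterate_succ_apply]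

/-- The `k`-subalgebra generated by a subfield and an element normalising it, acting with finite
order, is finite-dimensional provided the appropriate power of that element is algebraic. -/
theorem finite_adjoin_cyclic [FiniteDimensional k M] (φ : M →ₐ[k] Δ) (σ : M →ₐ[k] M) (x : Δ)
    (hx : ∀ m, x * φ m = φ (σ m) * x) {n : ℕ} (hn : 0 < n)
    (hu : IsIntegral k (x ^ n)) :
    Module.Finite k (Algebra.adjoin k (Set.range φ ∪ {x})) := by
  classical
  set u := x ^ n with hu_def
  set C : Subalgebra k Δ := Algebra.adjoin k {u} with hC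
  have hxC : ∀ w ∈ C, x * w = w * x := by
    intro w hw
    induction hw using Algebra.adjoin_induction with
    | mem a ha =>
      rw [Set.mem_singleton_iff] at ha
      subst ha
      rw [hu_def, ← pow_succ', ← pow_succ]
    | algebraMap r => rw [Algebra.commutes]
    | add a b _ _ ha hb => rw [mul_add, add_mul, ha, hb]
    | mul a b _ _ ha hb => rw [← mul_assoc, ha, mul_assoc, hb, mul_assoc]
  let S : Set Δ := {y | ∃ m : M, ∃ w ∈ C, ∃ i < n, y = φ m * w * x ^ i}
  let V : Submodule k Δ := Submodule.span k S
  -- the bound
  let A : Submodule k Δ := LinearMap.range φ.toLinearMap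
  let B : Submodule k Δ := Subalgebra.toSubmodule C
  let X : Submodule k Δ := Submodule.span k (Set.image (fun i : ℕ => x ^ i) (Set.Iio n))
  have hAfg : A.FG := by
    have : Module.Finite k (LinearMap.range φ.toLinearMap) := inferInstance
    exact Module.Finite.iff_fg.mp this
  have hBfg : B.FG := hu.fg_adjoin_singleton
  have hXfg : X.FG := Submodule.fg_span ((Set.finite_Iio n).image _)
  have hABXfg : (A * B * X).FG := (hAfg.mul hBfg).mul hXfg
  have hVle : V ≤ A * B * X := by
    apply Submodule.span_le.mpr
    rintro y ⟨m, w, hw, i, hi, rfl⟩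
    apply Submodule.mul_mem_mul (Submodule.mul_mem_mul (show φ m ∈ A from ⟨m, rfl⟩) hw)
    exact Submodule.subset_span ⟨i, hi, rfl⟩
  have hstab_phi : ∀ (m' : M), ∀ v ∈ V, φ m' * v ∈ V := by
    intro m' v hv
    induction hv using Submodule.span_induction with
    | mem y hy =>
      obtain ⟨m, w, hw, i, hi, rfl⟩ := hy
      apply Submodule.subset_span
      refine ⟨m' * m, w, hw, i, hi, ?_⟩
      rw [map_mul, mul_assoc, mul_assoc, mul_assoc]
    | zero => simp
    | add a b _ _ ha hb => rw [mul_add]; exact V.add_mem ha hb
    | smul c a _ ha => rw [mul_smul_comm]; exact V.smul_mem c ha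
  have hstab_x : ∀ v ∈ V, x * v ∈ V := by
    intro v hv
    induction hv using Submodule.span_induction with
    | mem y hy =>
      obtain ⟨m, w, hw, i, hi, rfl⟩ := hy
      have h1 : x * (φ m * w * x ^ i) = φ (σ m) * w * x ^ (i + 1) := by
        calc x * (φ m * w * x ^ i) = (x * φ m) * w * x ^ i := by simp only [mul_assoc]
          _ = φ (σ m) * (x * w) * x ^ i := by rw [hx]; simp only [mul_assoc]
          _ = φ (σ m) * (w * x) * x ^ i := by rw [hxC w hw]
          _ = φ (σ m) * w * x ^ (i + 1) := by rw [pow_succ']; simp only [mul_assoc]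
      rw [h1]
      by_cases hi' : i + 1 < n
      · exact Submodule.subset_span ⟨σ m, w, hw, i + 1, hi', rfl⟩
      · have hin : i + 1 = n := by omega
        rw [hin]
        apply Submodule.subset_span
        refine ⟨σ m, w * u, C.mul_mem hw (Algebra.subset_adjoin rfl), 0, hn, ?_⟩
        rw [pow_zero, mul_one, mul_assoc]
    | zero => simp
    | add a b _ _ ha hb => rw [mul_add]; exact V.add_mem ha hb
    | smul c a _ ha => rw [mul_smul_comm]; exact V.smul_mem c ha
  have hone : (1 : Δ) ∈ V := by
    apply Submodule.subset_span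
    exact ⟨1, 1, C.one_mem, 0, hn, by simp⟩
  have hall : ∀ a ∈ Algebra.adjoin k (Set.range φ ∪ {x}), ∀ v ∈ V, a * v ∈ V := by
    intro a ha
    induction ha using Algebra.adjoin_induction with
    | mem a ha =>
      rcases ha with ⟨m, rfl⟩ | ha
      · exact hstab_phi m
      · rw [Set.mem_singleton_iff] at ha
        subst ha
        exact hstab_x
    | algebraMap r =>
      intro v hv
      rw [← Algebra.smul_def]
      exact V.smul_mem r hv
    | add a b _ _ ha hb =>
      intro v hv
      rw [add_mul]
      exact V.add_mem (ha v hv) (hb v hv)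
    | mul a b _ _ ha hb =>
      intro v hv
      rw [mul_assoc]
      exact ha _ (hb v hv)
  have hle : Subalgebra.toSubmodule (Algebra.adjoin k (Set.range φ ∪ {x})) ≤ A * B * X := by
    intro a ha
    apply hVle
    have := hall a ha 1 hone
    rwa [mul_one] at this
  have hfin : Module.Finite k (A * B * X : Submodule k Δ) := Module.Finite.iff_fg.mpr hABXfg
  exact Submodule.finiteDimensional_of_le hle

end Cyclic

section Galois

variable {L E : Type*} [Field L] [Field E] [Algebra L E] [FiniteDimensional L E] [IsGalois L E]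

/-- A proper intermediate field of a Galois `p`-extension contains a Galois subextension of degree
`p` of the base as soon as it is not the base. -/
theorem exists_cyclic_intermediate {p : ℕ} [hp : Fact p.Prime] {k : ℕ}
    (hcard : finrank L E = p ^ k) (β : E) (hβ : β ∉ (algebraMap L E).range) :
    ∃ M : IntermediateField L E, finrank L M = p ∧ IsGalois L M ∧
      M ≤ IntermediateField.adjoin L {β} := by
  classical
  have hG : Nat.card Gal(E/L) = p ^ k := by
    rw [IsGalois.card_aut_eq_finrank, hcard]
  set K0 : IntermediateField L E := IntermediateField.adjoin L {β} with hK0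
  set Q : Subgroup Gal(E/L) := K0.fixingSubgroup with hQ
  have hQcard : Nat.card Q = finrank K0 E := by
    rw [hQ]
    exact IsGalois.card_fixingSubgroup_eq_finrank K0
  have hdvd : Nat.card Q ∣ p ^ k := by
    rw [← hG]
    exact Subgroup.card_subgroup_dvd_card Q
  obtain ⟨j, hj, hQj⟩ := (Nat.dvd_prime_pow hp.out).mp hdvd
  have hjk : j ≠ k := by
    intro h
    have hQtop : Q = ⊤ := by
      apply Subgroup.eq_top_of_card_eq
      rw [hQj, hG, h]
    have hK : K0 = ⊥ := by
      have h1 := IsGalois.fixedField_fixingSubgroup K0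
      rw [← hQ, hQtop] at h1
      rw [← h1]
      exact IsGalois.fixedField_top
    apply hβ
    have hmem : β ∈ K0 := IntermediateField.mem_adjoin_simple_self L β
    rw [hK] at hmem
    exact IntermediateField.mem_bot.mp hmem
  have hk1 : 1 ≤ k := by omega
  obtain ⟨m, rfl⟩ : ∃ m, k = m + 1 := ⟨k - 1, by omega⟩
  have hjm : j ≤ m := by omega
  obtain ⟨H, hHcard, hQH⟩ := Sylow.exists_subgroup_card_pow_prime_le p (G := Gal(E/L)) (m := m)
    (by rw [hG]; exact pow_dvd_pow p (by omega)) Q hQj hjm
  have hindex : H.index = p := by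
    have h1 := Subgroup.card_mul_index H
    rw [hHcard, hG, pow_succ] at h1
    exact Nat.eq_of_mul_eq_mul_left (pow_pos hp.out.pos m) h1
  have hnormal : H.Normal := by
    apply Subgroup.normal_of_index_eq_minFac_card
    rw [hindex, hG, Nat.Prime.pow_minFac hp.out (by omega)]
  refine ⟨IntermediateField.fixedField H, ?_, IsGalois.of_fixedField_normal_subgroup H, ?_⟩
  · have h1 := Module.finrank_mul_finrank L (IntermediateField.fixedField H) E
    rw [IntermediateField.finrank_fixedField_eq_card, hHcard, hcard, pow_succ, mul_comm] at h1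
    exact Nat.eq_of_mul_eq_mul_left (pow_pos hp.out.pos m) h1
  · have h1 : K0 = IntermediateField.fixedField Q := (IsGalois.fixedField_fixingSubgroup K0).symm
    rw [h1]
    exact IntermediateField.fixedField_antitone hQH

end Galois

end Vale.Agent.Lib.P199
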