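import Vale.Agent.Lib.P199.MatrixLemmas

open TensorProduct Module Polynomial

namespace Vale.Agent.Lib.P199

universe u

section Rmul

variable {K D1 : Type u} [Field K] [DivisionRing D1] [Algebra K D1] {r : ℕ}

/-- Right multiplication by a matrix on row vectors. -/
noncomputable def rmul (B : Matrix (Fin r) (Fin r) D1) : Module.End D1 (Fin r → D1) where
  toFun v := Matrix.vecMul v B
  map_add' v w := Matrix.add_vecMul B v w
  map_smul' d v := Matrix.smul_vecMul d v B

lemma rmul_apply (B : Matrix (Fin r) (Fin r) D1) (v : Fin r → D1) : rmul B v = Matrix.vecMul v B := rfl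

lemma rmul_pow (B : Matrix (Fin r) (Fin r) D1) (n : ℕ) : rmul (B ^ n) = (rmul B) ^ n := by
  induction n with
  | zero =>
    ext v
    simp [rmul_apply]
  | succ n ih =>
    rw [pow_succ, pow_succ']
    refine LinearMap.ext fun v => ?_
    rw [rmul_apply, Module.End.mul_apply, ← ih, rmul_apply, rmul_apply, Matrix.vecMul_vecMul]

lemma aeval_rmul (B : Matrix (Fin r) (Fin r) D1) (P : K[X]) : aeval (rmul B) P = rmul (aeval B P) := by
  induction P using Polynomial.induction_on' with
  | add p q hp hq =>
    rw [map_add, map_add, hp, hq]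
    refine LinearMap.ext fun v => ?_
    simp [rmul_apply, Matrix.vecMul_add]
  | monomial n c =>
    rw [aeval_monomial, aeval_monomial, ← rmul_pow]
    refine LinearMap.ext fun v => ?_
    rw [Module.End.mul_apply, Module.algebraMap_end_apply, rmul_apply, rmul_apply,
      ← Algebra.smul_def, Matrix.vecMul_smul]

end Rmul

section Embedding

variable {k Δ : Type u} [Field k] [DivisionRing Δ] [Algebra k Δ]

theorem exists_noncomm_of_embedding [Algebra.IsAlgebraic k Δ] {M : Type u} [Field M] [Algebra k M]
    [FiniteDimensional k M] (φ : M →ₐ[k] Δ) (σ : M ≃ₐ[k] M) (hσ : σ ≠ 1)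
    [Algebra.IsCentral k Δ] :
    ∃ (S : Type u) (_ : DivisionRing S) (_ : Algebra k S) (_ : FiniteDimensional k S),
      ∃ x y : S, x * y ≠ y * x := by
  classical
  obtain ⟨x, hx0, hx⟩ := skolem_noether φ (φ.comp (σ : M →ₐ[k] M))
  have hx' : ∀ m, x * φ m = φ ((σ : M →ₐ[k] M) m) * x := hx
  have hint : IsIntegral k (x ^ 1) := (Algebra.IsAlgebraic.isAlgebraic _).isIntegral
  have hfin := finite_adjoin_cyclic φ (σ : M →ₐ[k] M) x hx' Nat.one_pos hint
  set S : Subalgebra k Δ := Algebra.adjoin k (Set.range φ ∪ {x}) with hS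
  have hinv : ∀ a ∈ S, a⁻¹ ∈ S := fun a ha =>
    inv_mem_of_isAlgebraic S ha (Algebra.IsAlgebraic.isAlgebraic a)
  let _ : DivisionRing S := divisionRingOfInvMem S hinv
  obtain ⟨m0, hm0⟩ : ∃ m0, σ m0 ≠ m0 := by
    by_contra h
    push Not at h
    exact hσ (AlgEquiv.ext h)
  have hxS : x ∈ S := Algebra.subset_adjoin (Or.inr rfl)
  have hmS : φ m0 ∈ S := Algebra.subset_adjoin (Or.inl ⟨m0, rfl⟩)
  refine ⟨S, inferInstance, inferInstance, hfin, ⟨x, hxS⟩, ⟨φ m0, hmS⟩, ?_⟩
  intro h
  have h1 : x * φ m0 = φ m0 * x := congrArg Subtype.val h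
  have h2 := hx' m0
  rw [h1] at h2
  have h3 : φ m0 = φ (σ m0) := mul_right_cancel₀ hx0 h2
  exact hm0 (φ.injective h3).symm

variable {W : Type*} [AddCommGroup W] [Module Δ W] [Module k W] [SMulCommClass Δ k W]
  [IsScalarTower k Δ W] [Module.Finite Δ W]

/-- Let `g` be monic irreducible over `k`, with a root in a Galois `p`-extension `E` of `k`. If the
kernel of `g(T)` has dimension prime to `p`, a Galois subfield of `E` of degree `p` embeds in `Δ`. -/
theorem exists_embedding_of_kernel [Algebra.IsCentral k Δ] {E : Type u} [Field E] [Algebra k E]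
    [FiniteDimensional k E] [IsGalois k E] {p : ℕ} [hp : Fact p.Prime] {n : ℕ}
    (hcard : finrank k E = p ^ n) (T : Module.End Δ W) {g : k[X]} (hgi : Irreducible g)
    (hgm : g.Monic) (β : E) (hβ : aeval β g = 0) (hβ2 : β ∉ (algebraMap k E).range)
    (hW : ¬ p ∣ finrank Δ (kerP T g)) :
    ∃ M : IntermediateField k E, finrank k M = p ∧ IsGalois k M ∧ Nonempty (M →ₐ[k] Δ) := by
  classical
  obtain ⟨M, hMp, hMgal, hMle⟩ := exists_cyclic_intermediate hcard β hβ2
  refine ⟨M, hMp, hMgal, ?_⟩
  have hβint : IsIntegral k β := Algebra.IsIntegral.isIntegral β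
  have hgmin : g = minpoly k β := minpoly.eq_of_irreducible_of_monic hgi hβ hgm
  -- the restriction of `T` to the kernel
  set Wg : Submodule Δ W := kerP T g with hWg
  have hTinv : ∀ v ∈ Wg, T v ∈ Wg := by
    intro v hv
    have hv' : aeval T g v = 0 := hv
    change aeval T g (T v) = 0
    have hcomm : aeval T g * T = T * aeval T g := by
      have h1 : T = aeval T (X : k[X]) := by simp
      calc aeval T g * T = aeval T g * aeval T (X : k[X]) := by rw [← h1]
        _ = aeval T (g * X) := by rw [map_mul]
        _ = aeval T (X * g) := by rw [mul_comm]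
        _ = aeval T (X : k[X]) * aeval T g := by rw [map_mul]
        _ = T * aeval T g := by rw [← h1]
    have h2 := congrArg (fun F : Module.End Δ W => F v) hcomm
    change aeval T g (T v) = T (aeval T g v) at h2
    rw [h2, hv', map_zero]
  let TW : Module.End Δ Wg := T.restrict hTinv
  have hTW : ∀ (P : k[X]) (v : Wg), ((aeval TW P v : Wg) : W) = aeval T P (v : W) := by
    intro P v
    induction P using Polynomial.induction_on' with
    | add p q hp hq =>
      simp only [map_add, LinearMap.add_apply, Submodule.coe_add, hp, hq]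
    | monomial n c =>
      simp only [aeval_monomial, Module.End.mul_apply, Module.algebraMap_end_apply,
        Submodule.coe_smul_of_tower]
      congr 1
      induction n generalizing v with
      | zero => simp
      | succ n ih =>
        rw [pow_succ', pow_succ', Module.End.mul_apply, Module.End.mul_apply]
        simp only [TW, LinearMap.coe_restrict_apply]
        rw [ih]
  have hI : ∀ a : k[X], a ∈ Ideal.span ({g} : Set k[X]) → aeval TW a = 0 := by
    intro a ha
    obtain ⟨c, rfl⟩ := Ideal.mem_span_singleton'.mp ha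
    rw [map_mul]
    have : aeval TW g = 0 := by
      refine LinearMap.ext fun v => Subtype.ext ?_
      rw [hTW]
      exact v.2
    rw [this, mul_zero]
  let ψ0 : AdjoinRoot g →ₐ[k] Module.End Δ Wg := Ideal.Quotient.liftₐ _ (aeval TW) hI
  have eK : M →ₐ[k] AdjoinRoot g := by
    have e1 : AdjoinRoot (minpoly k β) ≃ₐ[k] IntermediateField.adjoin k {β} :=
      IntermediateField.adjoinRootEquivAdjoin k hβint
    rw [← hgmin] at e1
    exact (e1.symm : IntermediateField.adjoin k {β} →ₐ[k] AdjoinRoot g).comp
      (IntermediateField.inclusion hMle)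
  let ψ : M →ₐ[k] Module.End Δ Wg := ψ0.comp eK
  let _ : Module M Wg := Module.compHom Wg ψ.toRingHom
  have hψ : ∀ (m : M) (v : Wg), m • v = ψ m v := fun _ _ => rfl
  have h1 : IsScalarTower k M Wg := by
    refine ⟨fun c m v => ?_⟩
    rw [hψ, map_smul, LinearMap.smul_apply, hψ]
  have h2 : SMulCommClass Δ M Wg := by
    refine ⟨fun d m v => ?_⟩
    rw [hψ, hψ, map_smul]
  have hfin : Module.Finite Δ Wg := inferInstance
  have hprime : (finrank k M).Prime := by rw [hMp]; exact hp.out
  apply exists_algHom_of_not_dvd (k := k) (Δ := Δ) (M := M) Wg hprime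
  rwa [hMp]

end Embedding

end Vale.Agent.Lib.P199
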