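import Vale.Agent.Lib.P199.Core

open TensorProduct Module Polynomial

namespace Vale.Agent.Lib.P199

universe u

section Final

attribute [local instance] Algebra.TensorProduct.rightAlgebra

variable {F D : Type u} [Field F] [DivisionRing D] [Algebra F D]

/-- Every division ring with uncountable centre `F`, algebraic over `F`, is commutative when every
finite extension of `F` has trivial Brauer group. -/
theorem commutative_of_trivial_brauer [Algebra.IsCentral F D] [Algebra.IsAlgebraic F D]
    (hF : Uncountable F)
    (hBr : ∀ (L Δ : Type u) [Field L] [Algebra F L] [FiniteDimensional F L] [DivisionRing Δ]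
      [Algebra L Δ] [FiniteDimensional L Δ] (x y : Δ), x * y = y * x)
    (x y : D) : x * y = y * x := by
  classical
  by_contra hne
  have hbt : (⊥ : Subalgebra F D) ≠ ⊤ := by
    intro h
    have h1 : x ∈ (⊥ : Subalgebra F D) := h ▸ Algebra.mem_top
    obtain ⟨c, hc⟩ := Algebra.mem_bot.mp h1
    apply hne
    rw [← hc, Algebra.commutes]
  obtain ⟨a, ha, hs⟩ := JacobsonNoether.exists_separable_and_not_isCentral' (L := F) (D := D) hbt
  have hint : IsIntegral F a := (Algebra.IsAlgebraic.isAlgebraic a).isIntegral
  have hdeg : (minpoly F a).natDegree ≠ 1 := by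
    intro h
    apply ha
    have := minpoly.natDegree_eq_one_iff.mp h
    exact Algebra.mem_bot.mpr this
  obtain ⟨L, h1, h2, h3, Δ, h4, h5, h6, -, u, v, huv⟩ :=
    core hF a hs (Nat.minFac_prime hdeg) (Nat.minFac_dvd _)
  exact huv (hBr L Δ u v)

lemma comm_smul (F D M : Type u) [Field F] [DivisionRing D] [Algebra F D] [Field M] [Algebra F M]
    (m : M) (x : M ⊗[F] D) :
    TensorProduct.comm F M D (m • x) = m • TensorProduct.comm F M D x := by
  induction x using TensorProduct.induction_on with
  | zero => simp
  | tmul l d =>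
    rw [TensorProduct.smul_tmul', TensorProduct.comm_tmul, TensorProduct.comm_tmul]
    change d ⊗ₜ[F] (m • l) = ((1 : D) ⊗ₜ[F] m) * (d ⊗ₜ[F] l)
    rw [Algebra.TensorProduct.tmul_mul_tmul, one_mul, smul_eq_mul]
  | add a b ha hb => rw [smul_add, map_add, ha, hb, map_add, smul_add]

/-- `D ⊗[F] M` and `M ⊗[F] D` are isomorphic as `M`-modules. -/
noncomputable def commLinearEquiv (F D M : Type u) [Field F] [DivisionRing D] [Algebra F D] [Field M]
    [Algebra F M] : (M ⊗[F] D) ≃ₗ[M] (D ⊗[F] M) :=
  { TensorProduct.comm F M D with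
    map_smul' := fun m x => comm_smul F D M m x }

/-- **Kurosh's problem for uncountable virtually Brauer-trivial centres.** -/
theorem finite_of_virtually_trivial_brauer [Algebra.IsCentral F D] [Algebra.IsAlgebraic F D]
    (hF : Uncountable F) (L : Type u) [Field L] [Algebra F L] [FiniteDimensional F L]
    (hL : ∀ (L' Δ : Type u) [Field L'] [Algebra L L'] [FiniteDimensional L L'] [DivisionRing Δ]
      [Algebra L' Δ] [FiniteDimensional L' Δ] (x y : Δ), x * y = y * x) :
    ∃ r : ℕ, r ∣ finrank F L ∧ FiniteDimensional F D ∧ finrank F D = r ^ 2 := by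
  classical
  obtain ⟨r, hr, D1, hD1, hA, hcen, halg, hrdvd, ⟨e⟩⟩ := exists_matrix_tensor (D := D) hF (M := L)
  have hUL : Uncountable L :=
    (FaithfulSMul.algebraMap_injective F L).uncountable
  have hcomm : ∀ x y : D1, x * y = y * x := commutative_of_trivial_brauer hUL hL
  have hbij : ∀ x : D1, ∃ c : L, algebraMap L D1 c = x := by
    intro x
    have h1 : x ∈ Subalgebra.center L D1 := by
      rw [Subalgebra.mem_center_iff]
      exact fun y => hcomm y x
    rw [Algebra.IsCentral.center_eq_bot, Algebra.mem_bot] at h1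
    exact h1
  have hf1 : Module.finrank L D1 = 1 := by
    apply (finrank_eq_one_iff_of_nonzero' (1 : D1) one_ne_zero).mpr
    intro w
    obtain ⟨c, hc⟩ := hbij w
    exact ⟨c, by rw [← hc, Algebra.algebraMap_eq_smul_one]⟩
  have hfin1 : Module.Finite L D1 := Module.finite_of_finrank_pos (by omega)
  have hfin2 : Module.Finite L (Matrix (Fin r) (Fin r) D1) := inferInstance
  have hfr : finrank L (Matrix (Fin r) (Fin r) D1) = r ^ 2 := by
    rw [Module.finrank_matrix]
    simp [hf1, sq]
  have hrank : Module.rank L (Matrix (Fin r) (Fin r) D1) = ((r ^ 2 : ℕ) : Cardinal) := by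
    rw [← hfr, Module.finrank_eq_rank]
  have hrank2 : Module.rank F D = ((r ^ 2 : ℕ) : Cardinal) := by
    have h1 : Module.rank L (L ⊗[F] D) = Cardinal.lift (Module.rank F D) := Module.rank_baseChange
    have h2 : Module.rank L (L ⊗[F] D) = Module.rank L (Matrix (Fin r) (Fin r) D1) :=
      ((commLinearEquiv F D L).trans e.toLinearEquiv).rank_eq
    rw [h2, hrank, Cardinal.lift_id] at h1
    exact h1.symm
  refine ⟨r, hrdvd, ?_, ?_⟩
  · exact Module.finite_of_rank_eq_nat hrank2
  · exact Module.finrank_eq_of_rank_eq hrank2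

end Final

end Vale.Agent.Lib.P199
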