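import Vale.Agent.Lib.P199.Cyclic

open TensorProduct Module Polynomial

namespace Vale.Agent.Lib.P199

universe u

section Matrix

variable {F D M D1 : Type u} [Field F] [DivisionRing D] [Algebra F D] [Field M] [Algebra F M]
  [DivisionRing D1]

/-- The capacity of the base change of `D` along `M` divides `[M : F]`. -/
theorem capacity_dvd [FiniteDimensional F M] {r : ℕ} [NeZero r]
    (e : (D ⊗[F] M) ≃+* Matrix (Fin r) (Fin r) D1) : r ∣ finrank F M := by
  classical
  let ι : D →+* Matrix (Fin r) (Fin r) D1 :=
    (e : (D ⊗[F] M) →+* Matrix (Fin r) (Fin r) D1).comp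
      (Algebra.TensorProduct.includeLeft (R := F) (S := F) (A := D) (B := M)).toRingHom
  let col := Fin r → D1
  let _ : Module D col :=
    { smul := fun d v => (ι d).mulVec v
      one_smul := fun v => by
        change (ι 1).mulVec v = v
        rw [map_one, Matrix.one_mulVec]
      mul_smul := fun a b v => by
        change (ι (a * b)).mulVec v = (ι a).mulVec ((ι b).mulVec v)
        rw [map_mul, Matrix.mulVec_mulVec]
      smul_zero := fun a => Matrix.mulVec_zero _
      smul_add := fun a v w => Matrix.mulVec_add _ v w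
      add_smul := fun a b v => by
        change (ι (a + b)).mulVec v = (ι a).mulVec v + (ι b).mulVec v
        rw [map_add, Matrix.add_mulVec]
      zero_smul := fun v => by
        change (ι 0).mulVec v = 0
        rw [map_zero, Matrix.zero_mulVec] }
  have hsmul : ∀ (d : D) (v : col), d • v = (ι d).mulVec v := fun _ _ => rfl
  let Θ : (D ⊗[F] M) ≃ₗ[D] (Fin r → col) :=
    { toFun := fun x j i => e x i j
      invFun := fun w => e.symm (Matrix.of fun i j => w j i)
      left_inv := fun x => by
        apply e.injective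
        simp only [RingEquiv.apply_symm_apply]
        rfl
      right_inv := fun w => by
        funext j i
        simp
      map_add' := fun x y => by
        funext j i
        simp
      map_smul' := fun d x => by
        funext j i
        have h1 : e (d • x) = ι d * e x := by
          rw [smul_eq_tmul_one_mul, map_mul]
          rfl
        change e (d • x) i j = (ι d).mulVec (fun i => e x i j) i
        rw [h1]
        rfl }
  have hfinA : Module.Finite D (D ⊗[F] M) := Module.Finite.base_change F D M
  have hj : Fin r := ⟨0, Nat.pos_of_ne_zero (NeZero.ne r)⟩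
  have hfincol : Module.Finite D col := by
    refine Module.Finite.of_surjective ((LinearMap.proj hj : (Fin r → col) →ₗ[D] col) ∘ₗ Θ.toLinearMap) ?_
    intro v
    refine ⟨Θ.symm (fun _ => v), ?_⟩
    simp
  have hR : finrank D (D ⊗[F] M) = finrank F M := by
    rw [Module.finrank_eq_card_basis (Algebra.TensorProduct.basis D (Module.finBasis F M))]
    simp
  rw [← hR, Θ.finrank_eq, Module.finrank_pi_fintype]
  simp

lemma isCentral_of_matrix {K : Type u} [Field K] [Algebra K D1] {r : ℕ} [NeZero r]
    (h : Algebra.IsCentral K (Matrix (Fin r) (Fin r) D1)) : Algebra.IsCentral K D1 := by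
  refine ⟨fun z hz => ?_⟩
  have h1 : Matrix.scalarAlgHom (Fin r) K z ∈ Subalgebra.center K (Matrix (Fin r) (Fin r) D1) := by
    rw [Matrix.subalgebraCenter_eq_scalarAlgHom_map]
    exact ⟨z, hz, rfl⟩
  rw [Algebra.IsCentral.center_eq_bot, Algebra.mem_bot] at h1
  obtain ⟨c, hc⟩ := h1
  rw [Algebra.mem_bot]
  refine ⟨c, ?_⟩
  have hj : Fin r := ⟨0, Nat.pos_of_ne_zero (NeZero.ne r)⟩
  have h2 := congrFun (congrFun hc hj) hj
  simpa [Matrix.algebraMap_matrix_apply, Matrix.scalar_apply] using h2

lemma isAlgebraic_of_matrix {K A : Type u} [Field K] [Algebra K D1] [Ring A] [Algebra K A] {r : ℕ}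
    [NeZero r] (e : A ≃ₐ[K] Matrix (Fin r) (Fin r) D1) (h : ∀ z : A, IsAlgebraic K z) (d : D1) :
    IsAlgebraic K d := by
  have hinj : Function.Injective (Matrix.scalarAlgHom (Fin r) K : D1 →ₐ[K] Matrix (Fin r) (Fin r) D1) := by
    intro a b hab
    have hj : Fin r := ⟨0, Nat.pos_of_ne_zero (NeZero.ne r)⟩
    have h2 := congrFun (congrFun hab hj) hj
    simpa [Matrix.scalar_apply] using h2
  rw [← isAlgebraic_algHom_iff (Matrix.scalarAlgHom (Fin r) K : D1 →ₐ[K] Matrix (Fin r) (Fin r) D1) hinj]
  have h1 := h (e.symm (Matrix.scalarAlgHom (Fin r) K d))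
  have h2 := (isAlgebraic_algHom_iff (e : A →ₐ[K] Matrix (Fin r) (Fin r) D1) e.injective).mpr h1
  simpa using h2

end Matrix

end Vale.Agent.Lib.P199
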