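import Vale.Agent.Lib.P199.Tensor

open TensorProduct Module Polynomial

namespace Vale.Agent.Lib.P199

universe u

section Simple

variable {R : Type*} [Ring R] [IsSimpleRing R] [IsArtinianRing R]

lemma iso_of_simple {S1 S2 : Type*} [AddCommGroup S1] [AddCommGroup S2] [Module R S1] [Module R S2]
    [IsSimpleModule R S1] [IsSimpleModule R S2] : Nonempty (S1 ≃ₗ[R] S2) := by
  obtain ⟨I1, ⟨e1⟩⟩ := IsSemisimpleRing.exists_linearEquiv_ideal_of_isSimpleModule R S1
  obtain ⟨I2, ⟨e2⟩⟩ := IsSemisimpleRing.exists_linearEquiv_ideal_of_isSimpleModule R S2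
  have h1 : IsSimpleModule R I1 := IsSimpleModule.congr e1.symm
  have h2 : IsSimpleModule R I2 := IsSimpleModule.congr e2.symm
  obtain ⟨e⟩ := (IsSimpleRing.isIsotypic R R) I2 I1
  exact ⟨e1.trans (e.trans e2.symm)⟩

lemma isIsotypicOfType_of_simple (T : Type*) [AddCommGroup T] [Module R T] [IsSimpleModule R T]
    (W : Type*) [AddCommGroup W] [Module R W] : IsIsotypicOfType R W T := by
  intro m hm
  exact iso_of_simple

end Simple

section Dim

attribute [local instance] TensorProduct.Algebra.module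

variable {k Δ M : Type u} [Field k] [DivisionRing Δ] [Algebra k Δ] [Field M] [Algebra k M]

lemma isArtinianRing_tensor [FiniteDimensional k M] : IsArtinianRing (Δ ⊗[k] M) := by
  have hfin : Module.Finite Δ (Δ ⊗[k] M) := Module.Finite.base_change k Δ M
  have h1 : IsArtinian Δ (Δ ⊗[k] M) := inferInstance
  exact isArtinian_of_tower Δ h1

variable (W : Type*) [AddCommGroup W] [Module Δ W] [Module M W] [Module k W]
  [IsScalarTower k Δ W] [IsScalarTower k M W] [SMulCommClass Δ M W]

lemma tower_tensor : IsScalarTower Δ (Δ ⊗[k] M) W := by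
  refine ⟨fun d r w => ?_⟩
  induction r using TensorProduct.induction_on with
  | zero => simp
  | tmul a m =>
    rw [TensorProduct.smul_tmul', smul_eq_mul, TensorProduct.Algebra.smul_def,
      TensorProduct.Algebra.smul_def, mul_smul]
  | add x y hx hy => rw [smul_add, add_smul, add_smul, smul_add, hx, hy]

lemma finrank_dvd_of_tower {R : Type*} [Ring R] [IsSimpleRing R] [IsArtinianRing R]
    [Module Δ R] [IsScalarTower Δ R R] [Module.Finite Δ R]
    (T : Ideal R) [IsSimpleModule R T] (V : Type*) [AddCommGroup V] [Module Δ V] [Module R V]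
    [IsScalarTower Δ R V] [Module.Finite Δ V] : finrank Δ T ∣ finrank Δ V := by
  have hfinR : Module.Finite R V := Module.Finite.of_restrictScalars_finite Δ _ V
  have hiso : IsIsotypicOfType R V T := isIsotypicOfType_of_simple T V
  obtain ⟨n, ⟨e⟩⟩ := hiso.linearEquiv_fun
  have hfinT : Module.Finite Δ T :=
    Module.Finite.of_injective (T.subtype.restrictScalars Δ) T.injective_subtype
  have e' : V ≃ₗ[Δ] (Fin n → T) := e.restrictScalars Δ
  rw [e'.finrank_eq, Module.finrank_pi_fintype]
  simp

variable [Algebra.IsCentral k Δ] [FiniteDimensional k M]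

/-- If a field `M` of prime degree `p` over the centre `k` of a division ring `Δ` acts on a
finite-dimensional `Δ`-vector space of dimension prime to `p`, then `M` embeds in `Δ`. -/
theorem exists_algHom_of_not_dvd (hp : (finrank k M).Prime) (hW : ¬ finrank k M ∣ finrank Δ W)
    [Module.Finite Δ W] : Nonempty (M →ₐ[k] Δ) := by
  classical
  have hsimple : IsSimpleRing (Δ ⊗[k] M) := isSimpleRing_tensor k Δ M
  have hart : IsArtinianRing (Δ ⊗[k] M) := isArtinianRing_tensor
  obtain ⟨T, hT⟩ := IsAtomic.exists_atom (Ideal (Δ ⊗[k] M))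
  have hTs : IsSimpleModule (Δ ⊗[k] M) T := isSimpleModule_iff_isAtom.mpr hT
  have hfinR : Module.Finite Δ (Δ ⊗[k] M) := Module.Finite.base_change k Δ M
  have hfinT : Module.Finite Δ T :=
    Module.Finite.of_injective (T.subtype.restrictScalars Δ) T.injective_subtype
  have hR : finrank Δ (Δ ⊗[k] M) = finrank k M := by
    rw [Module.finrank_eq_card_basis (Algebra.TensorProduct.basis Δ (Module.finBasis k M))]
    simp
  have htowerW : IsScalarTower Δ (Δ ⊗[k] M) W := tower_tensor W
  have hd1 : finrank Δ T ∣ finrank k M := by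
    rw [← hR]
    exact finrank_dvd_of_tower (Δ := Δ) T (Δ ⊗[k] M)
  have hd2 : finrank Δ T ∣ finrank Δ W := finrank_dvd_of_tower (Δ := Δ) T W
  have hd : finrank Δ T = 1 := by
    rcases (Nat.dvd_prime hp).mp hd1 with h | h
    · exact h
    · exact absurd (h ▸ hd2) hW
  obtain ⟨t, ht0, ht⟩ := finrank_eq_one_iff'.mp hd
  let τ : M → Δ ⊗[k] M := fun m => (1 : Δ) ⊗ₜ[k] m
  have hex : ∀ m : M, ∃ c : Δ, c • t = τ m • t := fun m => ht _
  choose φ hφ using hex
  have hcancel : ∀ c c' : Δ, c • t = c' • t → c = c' := by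
    intro c c' h
    have h' : c • (t : Δ ⊗[k] M) = c' • (t : Δ ⊗[k] M) := congrArg Subtype.val h
    have h1 : (c - c') • (t : Δ ⊗[k] M) = 0 := by rw [sub_smul, h', sub_self]
    by_contra hne
    have h2 : (c - c')⁻¹ • (c - c') • (t : Δ ⊗[k] M) = t := by
      rw [smul_smul, inv_mul_cancel₀ (sub_ne_zero.mpr hne), one_smul]
    rw [h1, smul_zero] at h2
    exact ht0 (Subtype.ext h2.symm)
  have hτc : ∀ (m : M) (c : Δ), τ m • (c • t) = c • (τ m • t) := by
    intro m c
    apply Subtype.ext
    simp only [Submodule.coe_smul_of_tower, Submodule.coe_smul, smul_eq_mul]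
    rw [smul_eq_tmul_one_mul, smul_eq_tmul_one_mul, ← mul_assoc, ← mul_assoc]
    simp [τ, Algebra.TensorProduct.tmul_mul_tmul]
  have hτmul : ∀ m m' : M, τ (m * m') • t = τ m • τ m' • t := by
    intro m m'
    rw [smul_smul]
    simp [τ, Algebra.TensorProduct.tmul_mul_tmul]
  have hmul' : ∀ m m' : M, φ (m * m') = φ m' * φ m := by
    intro m m'
    apply hcancel
    rw [hφ, hτmul, ← hφ m', hτc, ← hφ m, smul_smul]
  have hmul : ∀ m m' : M, φ (m * m') = φ m * φ m' := by
    intro m m'
    rw [mul_comm, hmul']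
  have hadd : ∀ m m' : M, φ (m + m') = φ m + φ m' := by
    intro m m'
    apply hcancel
    rw [hφ, add_smul, hφ, hφ]
    simp only [τ, TensorProduct.tmul_add, add_smul]
  have halg : ∀ c : k, φ (algebraMap k M c) = algebraMap k Δ c := by
    intro c
    apply hcancel
    rw [hφ]
    apply Subtype.ext
    simp only [Submodule.coe_smul_of_tower, Submodule.coe_smul, smul_eq_mul, τ]
    rw [smul_eq_tmul_one_mul]
    congr 1
    rw [Algebra.algebraMap_eq_smul_one, Algebra.algebraMap_eq_smul_one, TensorProduct.tmul_smul,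
      TensorProduct.smul_tmul']
  exact ⟨{ toFun := φ
           map_one' := by
             apply hcancel
             rw [hφ]
             have h1 : τ 1 = 1 := rfl
             rw [h1]
             apply Subtype.ext
             simp
           map_mul' := hmul
           map_zero' := by
             apply hcancel
             rw [hφ]
             simp [τ]
           map_add' := hadd
           commutes' := halg }⟩

end Dim

section SkolemNoether

attribute [local instance] TensorProduct.Algebra.module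

variable {k Δ M : Type u} [Field k] [DivisionRing Δ] [Algebra k Δ] [Field M] [Algebra k M]

/-- `Δ` with `M` acting on the right through `φ`: helper type for Skolem-Noether. -/
def Tw (_φ : M →ₐ[k] Δ) : Type u := Δ

namespace Tw

variable (φ : M →ₐ[k] Δ)

instance : AddCommGroup (Tw φ) := inferInstanceAs (AddCommGroup Δ)
instance : Module Δ (Tw φ) := inferInstanceAs (Module Δ Δ)
instance : Module k (Tw φ) := inferInstanceAs (Module k Δ)

/-- The identity map, to read elements as elements of `Δ`. -/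
def ofΔ : Δ ≃ Tw φ := Equiv.refl _

lemma ofΔ_add (a b : Δ) : ofΔ φ (a + b) = ofΔ φ a + ofΔ φ b := rfl

instance : Module M (Tw φ) where
  smul m v := ofΔ φ ((ofΔ φ).symm v * φ m)
  one_smul v := by
    change ofΔ φ ((ofΔ φ).symm v * φ 1) = v
    simp
  mul_smul m m' v := by
    change ofΔ φ ((ofΔ φ).symm v * φ (m * m')) = ofΔ φ ((ofΔ φ).symm v * φ m' * φ m)
    rw [mul_comm m m', map_mul φ, mul_assoc]
  smul_zero m := by
    change ofΔ φ (0 * φ m) = ofΔ φ 0
    rw [zero_mul]
  smul_add m a b := by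
    change ofΔ φ (((ofΔ φ).symm a + (ofΔ φ).symm b) * φ m) =
      ofΔ φ ((ofΔ φ).symm a * φ m + (ofΔ φ).symm b * φ m)
    rw [add_mul]
  add_smul m m' v := by
    change ofΔ φ ((ofΔ φ).symm v * φ (m + m')) =
      ofΔ φ ((ofΔ φ).symm v * φ m + (ofΔ φ).symm v * φ m')
    rw [map_add, mul_add]
  zero_smul v := by
    change ofΔ φ ((ofΔ φ).symm v * φ 0) = ofΔ φ 0
    rw [map_zero, mul_zero]

lemma smul_def (m : M) (v : Tw φ) : m • v = ofΔ φ ((ofΔ φ).symm v * φ m) := rfl

instance : IsScalarTower k Δ (Tw φ) := inferInstanceAs (IsScalarTower k Δ Δ)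

instance : IsScalarTower k M (Tw φ) := by
  refine ⟨fun c m v => ?_⟩
  rw [smul_def]
  change ofΔ φ ((ofΔ φ).symm v * φ (c • m)) = c • ofΔ φ ((ofΔ φ).symm v * φ m)
  rw [map_smul, mul_smul_comm]
  rfl

instance : SMulCommClass Δ M (Tw φ) := by
  refine ⟨fun d m v => ?_⟩
  rw [smul_def, smul_def]
  change ofΔ φ (d * ((ofΔ φ).symm v * φ m)) = ofΔ φ (d * (ofΔ φ).symm v * φ m)
  rw [mul_assoc]

variable [Algebra.IsCentral k Δ] [FiniteDimensional k M]

lemma tmul_smul_one (d : Δ) (m : M) (v : Tw φ) :
    (d ⊗ₜ[k] m) • v = ofΔ φ (d * (ofΔ φ).symm v * φ m) := by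
  rw [TensorProduct.Algebra.smul_def, smul_def]
  rw [show (ofΔ φ (d * (ofΔ φ).symm v * φ m)) = ofΔ φ (d * ((ofΔ φ).symm v * φ m)) by rw [mul_assoc]]
  rfl

instance : IsSimpleModule (Δ ⊗[k] M) (Tw φ) := by
  have hnt : Nontrivial (Tw φ) := inferInstanceAs (Nontrivial Δ)
  rw [isSimpleModule_iff]
  refine { exists_pair_ne := ?_, eq_bot_or_eq_top := ?_ }
  · exact ⟨⊥, ⊤, bot_ne_top⟩
  intro N
  by_cases hN : N = ⊥
  · exact Or.inl hN
  right
  obtain ⟨v, hv, hv0⟩ := Submodule.exists_mem_ne_zero_of_ne_bot hN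
  rw [Submodule.eq_top_iff']
  intro w
  have hv0' : (ofΔ φ).symm v ≠ 0 := hv0
  have h := N.smul_mem (((ofΔ φ).symm w * ((ofΔ φ).symm v)⁻¹) ⊗ₜ[k] (1 : M)) hv
  rw [tmul_smul_one] at h
  simp only [map_one, mul_one, inv_mul_cancel_right₀ hv0'] at h
  exact h

end Tw

/-- **Skolem-Noether** for subfields of a division ring, possibly of infinite dimension over its
centre. -/
theorem skolem_noether [Algebra.IsCentral k Δ] [FiniteDimensional k M] (φ ψ : M →ₐ[k] Δ) :
    ∃ x : Δ, x ≠ 0 ∧ ∀ m : M, x * φ m = ψ m * x := by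
  have hsimple : IsSimpleRing (Δ ⊗[k] M) := isSimpleRing_tensor k Δ M
  have hart : IsArtinianRing (Δ ⊗[k] M) := isArtinianRing_tensor
  obtain ⟨e⟩ : Nonempty (Tw φ ≃ₗ[Δ ⊗[k] M] Tw ψ) := iso_of_simple
  set c : Δ := (Tw.ofΔ ψ).symm (e (Tw.ofΔ φ 1)) with hc
  have hc0 : c ≠ 0 := by
    intro h
    have h1 : e (Tw.ofΔ φ 1) = 0 := h
    have h2 : Tw.ofΔ φ (1 : Δ) = 0 := by
      simpa using h1
    exact one_ne_zero (α := Δ) h2
  have key : ∀ m : M, φ m * c = c * ψ m := by
    intro m
    have h1 := e.map_smul ((φ m) ⊗ₜ[k] (1 : M)) (Tw.ofΔ φ 1)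
    have h2 := e.map_smul ((1 : Δ) ⊗ₜ[k] m) (Tw.ofΔ φ 1)
    rw [Tw.tmul_smul_one] at h1 h2
    rw [Tw.tmul_smul_one] at h1 h2
    simp only [Equiv.symm_apply_apply, map_one, mul_one, one_mul] at h1 h2
    rw [h1] at h2
    exact congrArg (Tw.ofΔ ψ).symm h2
  refine ⟨c⁻¹, inv_ne_zero hc0, fun m => ?_⟩
  have h := key m
  calc c⁻¹ * φ m = c⁻¹ * (φ m * c) * c⁻¹ := by
        rw [mul_assoc c⁻¹, mul_assoc (φ m), mul_inv_cancel₀ hc0, mul_one]
    _ = c⁻¹ * (c * ψ m) * c⁻¹ := by rw [h]
    _ = ψ m * c⁻¹ := by rw [inv_mul_cancel_left₀ hc0]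

end SkolemNoether

section Primary

variable {k Δ W : Type*} [Field k] [DivisionRing Δ] [Algebra k Δ] [AddCommGroup W] [Module Δ W]
  [Module k W] [SMulCommClass Δ k W] [IsScalarTower k Δ W] [Module.Finite Δ W]

/-- The kernel of `P(T)`, as a `Δ`-subspace. -/
noncomputable abbrev kerP (T : Module.End Δ W) (P : k[X]) : Submodule Δ W :=
  LinearMap.ker (aeval T P)

lemma kerP_sup_eq (T : Module.End Δ W) {g h : k[X]} (hc : IsCoprime g h) :
    kerP T g ⊔ kerP T h = kerP T (g * h) := by
  obtain ⟨a, b, hab⟩ := hc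
  have hone : ∀ v : W, (aeval T a * aeval T g) v + (aeval T b * aeval T h) v = v := by
    intro v
    have h1 : aeval T (a * g + b * h) = 1 := by rw [hab, map_one]
    rw [map_add, map_mul, map_mul] at h1
    exact congrArg (fun F : Module.End Δ W => F v) h1
  apply le_antisymm
  · rw [sup_le_iff]
    constructor
    · intro v hv
      have hv' : aeval T g v = 0 := hv
      change aeval T (g * h) v = 0
      rw [mul_comm, map_mul]
      change aeval T h (aeval T g v) = 0
      rw [hv', map_zero]
    · intro v hv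
      have hv' : aeval T h v = 0 := hv
      change aeval T (g * h) v = 0
      rw [map_mul]
      change aeval T g (aeval T h v) = 0
      rw [hv', map_zero]
  · intro v hv
    have hv' : aeval T (g * h) v = 0 := hv
    rw [← hone v, add_comm]
    apply Submodule.add_mem_sup
    · change aeval T g ((aeval T b * aeval T h) v) = 0
      have h2 : aeval T g * (aeval T b * aeval T h) = aeval T b * aeval T (g * h) := by
        rw [← map_mul, ← map_mul, ← map_mul]
        congr 1
        ring
      change (aeval T g * (aeval T b * aeval T h)) v = 0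
      rw [h2]
      change aeval T b (aeval T (g * h) v) = 0
      rw [hv', map_zero]
    · change aeval T h ((aeval T a * aeval T g) v) = 0
      have h2 : aeval T h * (aeval T a * aeval T g) = aeval T a * aeval T (g * h) := by
        rw [← map_mul, ← map_mul, ← map_mul]
        congr 1
        ring
      change (aeval T h * (aeval T a * aeval T g)) v = 0
      rw [h2]
      change aeval T a (aeval T (g * h) v) = 0
      rw [hv', map_zero]

lemma kerP_inf_eq (T : Module.End Δ W) {g h : k[X]} (hc : IsCoprime g h) :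
    kerP T g ⊓ kerP T h = ⊥ := by
  obtain ⟨a, b, hab⟩ := hc
  rw [eq_bot_iff]
  intro v hv
  obtain ⟨hg, hh⟩ := Submodule.mem_inf.mp hv
  have hg' : aeval T g v = 0 := hg
  have hh' : aeval T h v = 0 := hh
  have h1 : aeval T (a * g + b * h) = 1 := by rw [hab, map_one]
  rw [map_add, map_mul, map_mul] at h1
  have h2 := congrArg (fun F : Module.End Δ W => F v) h1
  change aeval T a (aeval T g v) + aeval T b (aeval T h v) = v at h2
  rw [hg', hh', map_zero, map_zero, add_zero] at h2
  simp [← h2]

lemma finrank_kerP_mul (T : Module.End Δ W) {g h : k[X]} (hc : IsCoprime g h) :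
    finrank Δ (kerP T (g * h)) = finrank Δ (kerP T g) + finrank Δ (kerP T h) := by
  have h1 := Submodule.finrank_sup_add_finrank_inf_eq (kerP T g) (kerP T h)
  rw [kerP_sup_eq T hc, kerP_inf_eq T hc] at h1
  simpa using h1

/-- A separable polynomial `f` killing `T` has an irreducible factor `g` such that the kernel of
`g(T)` has dimension prime to `p`, provided that the whole space has dimension prime to `p`. -/
theorem exists_irreducible_factor (T : Module.End Δ W) {f : k[X]} (hf : f.Separable)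
    (hm : f.Monic) (hT : aeval T f = 0) {p : ℕ} (hp : ¬ p ∣ finrank Δ W) :
    ∃ g : k[X], Irreducible g ∧ g.Monic ∧ g ∣ f ∧ ¬ p ∣ finrank Δ (kerP T g) := by
  classical
  have hex : ∃ n : ℕ, ∃ P : k[X], P.Monic ∧ P ∣ f ∧ ¬ p ∣ finrank Δ (kerP T P) ∧ P.natDegree = n := by
    refine ⟨_, f, hm, dvd_rfl, ?_, rfl⟩
    have : kerP T f = ⊤ := by
      rw [kerP, hT, LinearMap.ker_zero]
    rw [this, finrank_top]
    exact hp
  obtain ⟨P, hPm, hPf, hPp, hPn⟩ := Nat.find_spec hex
  have hmin : ∀ Q : k[X], Q.Monic → Q ∣ f → ¬ p ∣ finrank Δ (kerP T Q) →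
      Nat.find hex ≤ Q.natDegree := by
    intro Q h1 h2 h3
    exact Nat.find_min' hex ⟨Q, h1, h2, h3, rfl⟩
  refine ⟨P, ?_, hPm, hPf, hPp⟩
  rw [hPm.irreducible_iff_natDegree]
  constructor
  · rintro rfl
    apply hPp
    have : kerP T (1 : k[X]) = ⊥ := by
      rw [kerP, map_one]
      exact LinearMap.ker_id
    rw [this]
    simp
  · intro g h hg hh hgh
    by_contra hcon
    push Not at hcon
    obtain ⟨hg0, hh0⟩ := hcon
    have hsep : (g * h).Separable := by
      rw [hgh]
      exact hf.of_dvd hPf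
    have hcop : IsCoprime g h := hsep.isCoprime
    have hdim := finrank_kerP_mul T hcop
    rw [hgh] at hdim
    have hdeg : P.natDegree = g.natDegree + h.natDegree := by
      rw [← hgh, hg.natDegree_mul hh]
    by_cases hpg : p ∣ finrank Δ (kerP T g)
    · have hph : ¬ p ∣ finrank Δ (kerP T h) := by
        intro hph
        apply hPp
        rw [hdim]
        exact dvd_add hpg hph
      have := hmin h hh ((Dvd.intro_left _ hgh).trans hPf) hph
      omega
    · have := hmin g hg ((Dvd.intro _ hgh).trans hPf) hpg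
      omega

end Primary

end Vale.Agent.Lib.P199
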