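import Mathlib

open TensorProduct Module Polynomial

namespace Vale.Agent.Lib.P199

section Tensor

variable {F D M : Type*} [Field F] [DivisionRing D] [Algebra F D] [Field M] [Algebra F M]

lemma smul_eq_tmul_one_mul (d : D) (z : D ⊗[F] M) : d • z = (d ⊗ₜ[F] (1 : M)) * z := by
  induction z using TensorProduct.induction_on with
  | zero => simp
  | tmul a m => simp [TensorProduct.smul_tmul']
  | add x y hx hy => simp [smul_add, mul_add, hx, hy]

lemma repr_mul_tmul_one {ι : Type*} (b : Basis ι F M) (z : D ⊗[F] M) (d : D) (i : ι) :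
    (Algebra.TensorProduct.basis D b).repr (z * (d ⊗ₜ[F] (1 : M))) i
      = (Algebra.TensorProduct.basis D b).repr z i * d := by
  induction z using TensorProduct.induction_on with
  | zero => simp
  | tmul a m =>
    simp only [Algebra.TensorProduct.tmul_mul_tmul, mul_one, Algebra.TensorProduct.basis_repr_tmul,
      Finsupp.smul_apply, smul_eq_mul, Finsupp.mapRange_apply]
    rw [mul_assoc, mul_assoc, Algebra.commutes]
  | add x y hx hy => simp [add_mul, hx, hy]

lemma repr_tmul_one_mul {ι : Type*} (b : Basis ι F M) (z : D ⊗[F] M) (d : D) (i : ι) :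
    (Algebra.TensorProduct.basis D b).repr ((d ⊗ₜ[F] (1 : M)) * z) i
      = d * (Algebra.TensorProduct.basis D b).repr z i := by
  rw [← smul_eq_tmul_one_mul]
  simp

lemma exists_eq_one_tmul_of_coords [Algebra.IsCentral F D] [FiniteDimensional F M]
    {ι : Type*} [Fintype ι] (b : Basis ι F M) (z : D ⊗[F] M)
    (h : ∀ (d : D) (i : ι), d * (Algebra.TensorProduct.basis D b).repr z i
      = (Algebra.TensorProduct.basis D b).repr z i * d) :
    ∃ m : M, z = (1 : D) ⊗ₜ[F] m := by
  classical
  have hc : ∀ i, ∃ c : F, (Algebra.TensorProduct.basis D b).repr z i = algebraMap F D c := by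
    intro i
    have hmem : (Algebra.TensorProduct.basis D b).repr z i ∈ Subalgebra.center F D := by
      rw [Subalgebra.mem_center_iff]
      intro d
      exact h d i
    rw [Algebra.IsCentral.center_eq_bot, Algebra.mem_bot] at hmem
    obtain ⟨c, hc⟩ := hmem
    exact ⟨c, hc.symm⟩
  choose c hc using hc
  refine ⟨∑ i, c i • b i, ?_⟩
  apply (Algebra.TensorProduct.basis D b).repr.injective
  ext i
  rw [hc i, Algebra.TensorProduct.basis_repr_tmul]
  have h2 : b.repr (∑ i, c i • b i) i = c i := by
    rw [Basis.repr_sum_self]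
  simp only [one_smul, Finsupp.mapRange_apply, h2]

lemma nontrivial_tensor [FiniteDimensional F M] : Nontrivial (D ⊗[F] M) := by
  classical
  let b := Module.finBasis F M
  let B := Algebra.TensorProduct.basis D b
  refine ⟨⟨(1 : D) ⊗ₜ[F] (1 : M), 0, ?_⟩⟩
  intro h
  have h0 : b.repr (1 : M) ≠ 0 := by
    intro h1
    exact one_ne_zero (b.repr.map_eq_zero_iff.mp h1)
  obtain ⟨i, hi⟩ := Finsupp.ne_iff.mp h0
  have h1 : B.repr ((1 : D) ⊗ₜ[F] (1 : M)) i = 0 := by rw [h]; simp
  rw [Algebra.TensorProduct.basis_repr_tmul] at h1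
  simp only [one_smul, Finsupp.mapRange_apply] at h1
  rw [map_eq_zero] at h1
  exact hi h1

variable (F D M) in
theorem isSimpleRing_tensor [Algebra.IsCentral F D] [FiniteDimensional F M] :
    IsSimpleRing (D ⊗[F] M) := by
  classical
  let b := Module.finBasis F M
  let B := Algebra.TensorProduct.basis D b
  have hnt : Nontrivial (D ⊗[F] M) := nontrivial_tensor
  rw [isSimpleRing_iff_isTwoSided_imp]
  refine ⟨hnt, ?_⟩
  intro I hI
  by_cases hbot : I = ⊥
  · exact Or.inl hbot
  right
  -- choose a nonzero element of minimal support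
  have hex : ∃ n, ∃ z ∈ I, z ≠ 0 ∧ (B.repr z).support.card = n := by
    obtain ⟨z, hz, hz0⟩ := Submodule.exists_mem_ne_zero_of_ne_bot hbot
    exact ⟨_, z, hz, hz0, rfl⟩
  obtain ⟨z, hzI, hz0, hzn⟩ := Nat.find_spec hex
  have hmin : ∀ y ∈ I, y ≠ 0 → Nat.find hex ≤ (B.repr y).support.card := by
    intro y hy hy0
    exact Nat.find_min' hex ⟨y, hy, hy0, rfl⟩
  -- pick a coordinate
  have hrz : B.repr z ≠ 0 := fun h => hz0 (B.repr.map_eq_zero_iff.mp h)
  obtain ⟨i0, hi0⟩ := Finsupp.ne_iff.mp hrz
  simp only [Finsupp.coe_zero, Pi.zero_apply] at hi0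
  -- normalise
  set d0 : D := (B.repr z i0)⁻¹ with hd0
  set z' : D ⊗[F] M := (d0 ⊗ₜ[F] (1 : M)) * z with hz'
  have hz'I : z' ∈ I := I.mul_mem_left _ hzI
  have hz'coord : ∀ i, B.repr z' i = d0 * B.repr z i := fun i => repr_tmul_one_mul b z d0 i
  have hz'i0 : B.repr z' i0 = 1 := by
    rw [hz'coord, hd0, inv_mul_cancel₀ hi0]
  have hd00 : d0 ≠ 0 := inv_ne_zero hi0
  have hz'0 : z' ≠ 0 := by
    intro h
    rw [h] at hz'i0
    simp at hz'i0
  have hsupp : (B.repr z').support = (B.repr z).support := by
    ext i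
    simp only [Finsupp.mem_support_iff, hz'coord]
    simp [hd00]
  have hcomm : ∀ (d : D) (i : Fin (finrank F M)), d * B.repr z' i = B.repr z' i * d := by
    intro d i
    set w : D ⊗[F] M := (d ⊗ₜ[F] (1 : M)) * z' - z' * (d ⊗ₜ[F] (1 : M)) with hw
    have hwI : w ∈ I := I.sub_mem (I.mul_mem_left _ hz'I) (I.mul_mem_right _ hz'I)
    have hwc : ∀ i, B.repr w i = d * B.repr z' i - B.repr z' i * d := by
      intro i
      rw [hw, map_sub, Finsupp.sub_apply]
      rw [repr_tmul_one_mul b z' d i, repr_mul_tmul_one b z' d i]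
    have hw0 : w = 0 := by
      by_contra hne
      have h1 := hmin w hwI hne
      have h2 : (B.repr w).support ⊂ (B.repr z).support := by
        rw [Finset.ssubset_iff_of_subset]
        · refine ⟨i0, Finsupp.mem_support_iff.mpr hi0, ?_⟩
          simp only [Finsupp.mem_support_iff, not_not]
          rw [hwc, hz'i0]
          simp
        · intro i hi
          rw [← hsupp]
          simp only [Finsupp.mem_support_iff, ne_eq] at hi ⊢
          intro hzi
          apply hi
          rw [hwc, hzi]
          simp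
      have h3 := Finset.card_lt_card h2
      omega
    have := hwc i
    rw [hw0] at this
    simp only [map_zero, Finsupp.coe_zero, Pi.zero_apply] at this
    exact sub_eq_zero.mp this.symm
  obtain ⟨m, hm⟩ := exists_eq_one_tmul_of_coords b z' hcomm
  have hm0 : m ≠ 0 := by
    rintro rfl
    apply hz'0
    rw [hm]
    simp
  have h1 : (1 : D ⊗[F] M) ∈ I := by
    have h2 : z' * ((1 : D) ⊗ₜ[F] m⁻¹) = 1 := by
      rw [hm, Algebra.TensorProduct.tmul_mul_tmul, mul_one, mul_inv_cancel₀ hm0]
      rfl
    rw [← h2]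
    exact I.mul_mem_right _ hz'I
  exact (Ideal.eq_top_iff_one I).mpr h1

attribute [local instance] Algebra.TensorProduct.rightAlgebra in
variable (F D M) in
/-- The base change of a central division algebra along a finite field extension is central. -/
theorem isCentral_tensor [Algebra.IsCentral F D] [FiniteDimensional F M] :
    Algebra.IsCentral M (D ⊗[F] M) := by
  classical
  let b := Module.finBasis F M
  let B := Algebra.TensorProduct.basis D b
  refine ⟨?_⟩
  intro z hz
  rw [Subalgebra.mem_center_iff] at hz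
  obtain ⟨m, hm⟩ := exists_eq_one_tmul_of_coords b z (fun d i => by
    have h1 := hz (d ⊗ₜ[F] (1 : M))
    have h2 := repr_tmul_one_mul b z d i
    have h3 := repr_mul_tmul_one b z d i
    rw [h1] at h2
    rw [← h2, h3])
  rw [Algebra.mem_bot]
  exact ⟨m, hm.symm⟩

end Tensor

universe u

section
variable {F R : Type u} [Field F] [Ring R] [Algebra F R]

lemma isAlgebraic_of_units (hF : Uncountable F) (hrank : Module.rank F R ≤ Cardinal.aleph0) (z : R)
    (hbad : {c : F | ¬ IsUnit (z - algebraMap F R c)}.Countable) : IsAlgebraic F z := by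
  classical
  let G : Set F := {c : F | IsUnit (z - algebraMap F R c)}
  have hG : ¬ G.Countable := by
    intro hG
    have : (Set.univ : Set F).Countable := by
      have h : (Set.univ : Set F) = G ∪ {c : F | ¬ IsUnit (z - algebraMap F R c)} := by
        ext c
        simp [G, em]
      rw [h]
      exact hG.union hbad
    exact (Set.not_countable_univ (α := F)) this
  have hunit : ∀ c : G, IsUnit (z - algebraMap F R c.1) := fun c => c.2
  let v : G → R := fun c => ((hunit c).unit⁻¹ : Rˣ)
  have hv : ∀ c : G, v c * (z - algebraMap F R c.1) = 1 := fun c => (hunit c).val_inv_mul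
  have hnl : ¬ LinearIndependent F v := by
    intro hl
    have h1 : Cardinal.mk G ≤ Module.rank F R := by
      simpa using hl.cardinal_le_rank
    exact hG (Cardinal.le_aleph0_iff_set_countable.mp (h1.trans hrank))
  rw [not_linearIndependent_iff] at hnl
  obtain ⟨s, g, hsum, i0, hi0, hgi0⟩ := hnl
  let Qi : G → F[X] := fun i => ∏ j ∈ s.erase i, (X - C (j.1 : F))
  let Q : F[X] := ∏ j ∈ s, (X - C (j.1 : F))
  let P : F[X] := ∑ i ∈ s, C (g i) * Qi i
  have hQ : ∀ i ∈ s, Q = (X - C (i.1 : F)) * Qi i := fun i hi =>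
    (Finset.mul_prod_erase s (fun j : G => (X - C (j.1 : F))) hi).symm
  have hP : aeval z P = 0 := by
    have h1 : ∀ i ∈ s, g i • aeval z (Qi i) = g i • (v i * aeval z Q) := by
      intro i hi
      rw [hQ i hi, map_mul, ← mul_assoc]
      simp only [map_sub, aeval_X, aeval_C]
      rw [hv i, one_mul]
    have h2 : aeval z P = (∑ i ∈ s, g i • v i) * aeval z Q := by
      simp only [P, map_sum, Finset.sum_mul, map_mul, aeval_C]
      refine Finset.sum_congr rfl fun i hi => ?_
      rw [← Algebra.smul_def, h1 i hi, smul_mul_assoc]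
    rw [h2, hsum, zero_mul]
  have hP0 : P ≠ 0 := by
    intro h
    have h1 : P.eval (i0.1 : F) = 0 := by rw [h]; simp
    have h2 : P.eval (i0.1 : F) = g i0 * ∏ j ∈ s.erase i0, ((i0.1 : F) - (j.1 : F)) := by
      simp only [P, eval_finsetSum, eval_mul, eval_C]
      rw [Finset.sum_eq_single i0]
      · simp [Qi, eval_prod]
      · intro j hj hne
        have : (Qi j).eval (i0.1 : F) = 0 := by
          simp only [Qi, eval_prod]
          apply Finset.prod_eq_zero (i := i0)
          · exact Finset.mem_erase.mpr ⟨hne.symm, hi0⟩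
          · simp
        rw [this, mul_zero]
      · intro h; exact absurd hi0 h
    rw [h2] at h1
    have h3 : ∏ j ∈ s.erase i0, ((i0.1 : F) - (j.1 : F)) ≠ 0 := by
      apply Finset.prod_ne_zero_iff.mpr
      intro j hj
      have hne : j ≠ i0 := (Finset.mem_erase.mp hj).1
      intro h
      apply hne
      exact Subtype.ext (sub_eq_zero.mp h).symm
    exact (mul_ne_zero hgi0 h3) h1
  exact ⟨P, hP0, hP⟩

end

section
variable {F D M : Type u} [Field F] [DivisionRing D] [Algebra F D] [Field M] [Algebra F M]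

instance instTower : IsScalarTower D (D ⊗[F] M) (D ⊗[F] M) := by
  refine ⟨fun d x y => ?_⟩
  simp only [smul_eq_mul, smul_eq_tmul_one_mul, mul_assoc]

lemma isUnit_or_zero_divisor [FiniteDimensional F M] (y : D ⊗[F] M) :
    IsUnit y ∨ ∃ r : D ⊗[F] M, r ≠ 0 ∧ r * y = 0 := by
  classical
  have hfin : Module.Finite D (D ⊗[F] M) := Module.Finite.base_change F D M
  let ρ : (D ⊗[F] M) →ₗ[D] (D ⊗[F] M) :=
    { toFun := fun r => r * y
      map_add' := fun a b => add_mul a b y
      map_smul' := fun d r => by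
        simp only [RingHom.id_apply, smul_mul_assoc] }
  by_cases hinj : Function.Injective ρ
  · left
    have hsurj : Function.Surjective ρ := LinearMap.injective_iff_surjective.mp hinj
    obtain ⟨w, hw⟩ := hsurj 1
    have hw' : w * y = 1 := hw
    have hw2 : y * w = 1 := by
      apply hinj
      change (y * w) * y = 1 * y
      rw [mul_assoc, hw', mul_one, one_mul]
    exact ⟨⟨y, w, hw2, hw'⟩, rfl⟩
  · right
    rw [← LinearMap.ker_eq_bot, Submodule.eq_bot_iff] at hinj
    push Not at hinj
    obtain ⟨r, hr, hr0⟩ := hinj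
    exact ⟨r, hr0, hr⟩

theorem isAlgebraic_tensor_of_countable [FiniteDimensional F M] (hF : Uncountable F)
    (hD : Module.rank F D ≤ Cardinal.aleph0) (z : D ⊗[F] M) : IsAlgebraic F z := by
  classical
  have hrank : Module.rank F (D ⊗[F] M) ≤ Cardinal.aleph0 := by
    rw [rank_tensorProduct']
    exact (mul_le_mul' hD (Module.rank_lt_aleph0 F M).le).trans_eq Cardinal.aleph0_mul_aleph0
  refine isAlgebraic_of_units hF hrank z ?_
  let ρ : Module.End F (D ⊗[F] M) := LinearMap.mulRight F z
  let μs : Set F := {c : F | ¬ IsUnit (z - algebraMap F (D ⊗[F] M) c)}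
  have hex : ∀ c : μs, ∃ r : D ⊗[F] M, ρ.HasEigenvector c.1 r := by
    intro c
    obtain h | ⟨r, hr0, hr⟩ := isUnit_or_zero_divisor (F := F) (D := D) (M := M)
      (z - algebraMap F (D ⊗[F] M) c.1)
    · exact absurd h c.2
    · refine ⟨r, ?_, hr0⟩
      rw [Module.End.mem_eigenspace_iff]
      change r * z = c.1 • r
      rw [mul_sub, sub_eq_zero] at hr
      rw [hr, Algebra.smul_def, Algebra.commutes]
  choose xs hxs using hex
  have hl := Module.End.eigenvectors_linearIndependent ρ μs xs hxs
  have h1 : Cardinal.mk μs ≤ Module.rank F (D ⊗[F] M) := by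
    simpa using hl.cardinal_le_rank
  exact Cardinal.le_aleph0_iff_set_countable.mp (h1.trans hrank)

end

section
variable {F D : Type u} [Field F] [DivisionRing D] [Algebra F D]

lemma inv_mem_of_isAlgebraic (S : Subalgebra F D) {a : D} (ha : a ∈ S) (halg : IsAlgebraic F a) :
    a⁻¹ ∈ S := by
  by_cases h0 : a = 0
  · simp [h0]
  have hint : IsIntegral F a := halg.isIntegral
  set P := minpoly F a with hP
  have hc : P.coeff 0 ≠ 0 := minpoly.coeff_zero_ne_zero hint h0
  have h1 : a * aeval a (divX P) = - algebraMap F D (P.coeff 0) := by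
    have h2 : aeval a P = 0 := minpoly.aeval F a
    have h3 := divX_mul_X_add P
    have h4 : aeval a (divX P * X + C (P.coeff 0)) = 0 := by rw [h3, h2]
    rw [map_add, map_mul, aeval_X, aeval_C] at h4
    have h5 : a * aeval a (divX P) = aeval a (divX P) * a := by
      calc a * aeval a (divX P) = aeval a (X * divX P) := by rw [map_mul, aeval_X]
        _ = aeval a (divX P * X) := by rw [mul_comm]
        _ = aeval a (divX P) * a := by rw [map_mul, aeval_X]
    rw [h5]
    exact eq_neg_of_add_eq_zero_left h4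
  have hinv : a⁻¹ = - (P.coeff 0)⁻¹ • aeval a (divX P) := by
    have hunit : algebraMap F D (P.coeff 0) ≠ 0 := by simpa using hc
    apply mul_left_cancel₀ h0
    rw [mul_inv_cancel₀ h0, mul_smul_comm, h1, smul_neg, neg_smul, neg_neg, Algebra.smul_def,
      ← map_mul, inv_mul_cancel₀ hc, map_one]
  rw [hinv]
  apply S.smul_mem
  have : aeval a (divX P) = ((aeval (⟨a, ha⟩ : S) (divX P) : S) : D) := by
    rw [Polynomial.aeval_subalgebra_coe]
  rw [this]
  exact (aeval (⟨a, ha⟩ : S) (divX P) : S).2

/-- A subalgebra closed under inverses is a division ring. -/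
noncomputable abbrev divisionRingOfInvMem (S : Subalgebra F D) (h : ∀ a ∈ S, a⁻¹ ∈ S) : DivisionRing S :=
  DivisionRing.ofIsUnitOrEqZero (fun a => by
    by_cases h0 : a = 0
    · exact Or.inr h0
    · left
      have h0' : (a : D) ≠ 0 := fun h' => h0 (Subtype.ext h')
      refine ⟨⟨a, ⟨(a : D)⁻¹, h a a.2⟩, ?_, ?_⟩, rfl⟩
      · exact Subtype.ext (mul_inv_cancel₀ h0')
      · exact Subtype.ext (inv_mul_cancel₀ h0'))

lemma rank_adjoin_finset_le (s : Finset D) :
    Module.rank F (Algebra.adjoin F (s : Set D)) ≤ Cardinal.aleph0 := by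
  have h1 : Subalgebra.toSubmodule (Algebra.adjoin F (s : Set D))
      = Submodule.span F (Submonoid.closure (s : Set D) : Set D) := Algebra.adjoin_eq_span F _
  have h2 : Module.rank F (Algebra.adjoin F (s : Set D))
      = Module.rank F (Subalgebra.toSubmodule (Algebra.adjoin F (s : Set D))) := rfl
  rw [h2, h1]
  refine (rank_span_le _).trans ?_
  have h3 : ((Submonoid.closure (s : Set D) : Submonoid D) : Set D).Countable := by
    rw [Submonoid.closure_eq_mrange]
    have : Countable (FreeMonoid (s : Set D)) := inferInstanceAs (Countable (List (s : Set D)))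
    exact Set.countable_range _
  exact Cardinal.le_aleph0_iff_set_countable.mpr h3

/-- **Amitsur's trick.** If `D` is algebraic over an uncountable field `F`, then so is
`D ⊗ M` for every finite field extension `M`. -/
theorem isAlgebraic_tensor [Algebra.IsAlgebraic F D] {M : Type u} [Field M] [Algebra F M]
    [FiniteDimensional F M] (hF : Uncountable F) (z : D ⊗[F] M) : IsAlgebraic F z := by
  classical
  obtain ⟨T, hT⟩ := TensorProduct.exists_finset z
  let s : Finset D := T.image Prod.fst
  let S : Subalgebra F D := Algebra.adjoin F (s : Set D)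
  have hinv : ∀ a ∈ S, a⁻¹ ∈ S := fun a ha =>
    inv_mem_of_isAlgebraic S ha (Algebra.IsAlgebraic.isAlgebraic a)
  let _ : DivisionRing S := divisionRingOfInvMem S hinv
  have hrank : Module.rank F S ≤ Cardinal.aleph0 := rank_adjoin_finset_le s
  let φ : (S ⊗[F] M) →ₐ[F] (D ⊗[F] M) := Algebra.TensorProduct.map S.val (AlgHom.id F M)
  have hmem : ∀ p ∈ T, p.1 ∈ S := fun p hp =>
    Algebra.subset_adjoin (Finset.mem_coe.mpr (Finset.mem_image_of_mem Prod.fst hp))
  let z0 : S ⊗[F] M := ∑ p ∈ T.attach, (⟨p.1.1, hmem p.1 p.2⟩ : S) ⊗ₜ[F] p.1.2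
  have hz0 : φ z0 = z := by
    simp only [z0, map_sum, φ, Algebra.TensorProduct.map_tmul, Subalgebra.coe_val,
      AlgHom.id_apply]
    rw [hT]
    exact Finset.sum_attach T (fun p => p.1 ⊗ₜ[F] p.2)
  have halg : IsAlgebraic F z0 := isAlgebraic_tensor_of_countable hF hrank z0
  obtain ⟨P, hP0, hP⟩ := halg
  exact ⟨P, hP0, by rw [← hz0, Polynomial.aeval_algHom_apply, hP, map_zero]⟩

end

end Vale.Agent.Lib.P199
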